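import Vale.Agent.P085.Concl

namespace Vale.Agent.Results.P085.Factor

open scoped ComplexOrder

/-- Every II_1 factor on a separable Hilbert space is singly generated: `M` is a von Neumann
algebra with centre the scalars, infinite dimensional, with a faithful tracial state `τ`
(normality of `τ` is not needed).  Then some `x` in `M` has `M` as the smallest von Neumann algebra
containing it, and `M` lies in the weak operator closure of the unital star algebra of `x`. -/
theorem result {H : Type*} [NormedAddCommGroup H] [InnerProductSpace ℂ H] [CompleteSpace H]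
    [TopologicalSpace.SeparableSpace H] (M : VonNeumannAlgebra H)
    (hfac : ∀ x ∈ M, (∀ y ∈ M, x * y = y * x) → ∃ c : ℂ, x = c • 1)
    (hinf : ¬ FiniteDimensional ℂ M.toStarSubalgebra)
    (τ : M.toStarSubalgebra →ₗ[ℂ] ℂ) (h1 : τ 1 = 1) (hpos : ∀ x, 0 ≤ τ (star x * x))
    (htr : ∀ x y, τ (x * y) = τ (y * x)) (hf : ∀ x, τ (star x * x) = 0 → x = 0) :
    ∃ x ∈ M, (∀ N : VonNeumannAlgebra H, x ∈ N → M ≤ N) ∧
      ∀ z ∈ M, ContinuousLinearMapWOT.ofCLM z ∈ closure (ContinuousLinearMapWOT.ofCLM ''
        (StarAlgebra.adjoin ℂ {x} : Set (H →L[ℂ] H))) := by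
  obtain ⟨x, hx, h⟩ := Vale.Agent.P085.factor_case M.toStarSubalgebra
    (Vale.Agent.P085.exists_vN M) hfac hinf τ h1 hpos htr hf
  exact ⟨x, hx, Vale.Agent.P085.conclude M h⟩

end Vale.Agent.Results.P085.Factor
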